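import Mathlib
import Vale.Agent.P154.Defs
import Vale.Agent.P154.Inst
import Vale.Agent.P154.KS
import Vale.Agent.P154.Q4Facts
import Vale.Agent.P154.ThreeAll

/-!
# P154: reconstruction thresholds of the three- and four-state Potts channels

For `q = 3` and every admissible eigenvalue `λ ∈ [-1/2, 1]`, and for `q = 4` and every
`λ ∈ [0, 1]`: on the rooted `d`-ary tree, for every `d ≥ 2`, and on the Galton–Watson tree with
Poisson(`d`) offspring, for every real `d > 0`, reconstruction occurs if and only if `d λ² > 1`.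
-/

namespace Vale.Agent.Results.P154.AllParameters

open Vale.Agent.P154 MeasureTheory

theorem result :
    (∀ lam : ℝ, -1 / 2 ≤ lam → lam ≤ 1 →
      (∀ d : ℕ, 2 ≤ d →
        (Reconstruction (aRegular 3 lam d) ↔ 1 < (d : ℝ) * lam ^ 2) ∧
        (Nonreconstruction (aRegular 3 lam d) ↔ (d : ℝ) * lam ^ 2 ≤ 1)) ∧
      (∀ d : NNReal, 0 < d →
        (∀ n, Integrable (fun N => quenched 3 lam N n) (poissonTree d)) ∧
        (Reconstruction (aPoisson 3 lam d) ↔ 1 < (d : ℝ) * lam ^ 2) ∧
        (Nonreconstruction (aPoisson 3 lam d) ↔ (d : ℝ) * lam ^ 2 ≤ 1))) ∧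
    (∀ lam : ℝ, 0 ≤ lam → lam ≤ 1 →
      (∀ d : ℕ, 2 ≤ d →
        (Reconstruction (aRegular 4 lam d) ↔ 1 < (d : ℝ) * lam ^ 2) ∧
        (Nonreconstruction (aRegular 4 lam d) ↔ (d : ℝ) * lam ^ 2 ≤ 1)) ∧
      (∀ d : NNReal, 0 < d →
        (∀ n, Integrable (fun N => quenched 4 lam N n) (poissonTree d)) ∧
        (Reconstruction (aPoisson 4 lam d) ↔ 1 < (d : ℝ) * lam ^ 2) ∧
        (Nonreconstruction (aPoisson 4 lam d) ↔ (d : ℝ) * lam ^ 2 ≤ 1))) := by
  refine ⟨fun lam h0 h1 => ?_, fun lam h0 h1 => Q4.threshold Q4.facts lam h0 h1⟩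
  have hadm : Admissible 3 lam := admissible_three h0 h1
  rcases le_total 0 lam with h | h
  · have hmu : 0 < (cert3 lam h h1).mu := cert3_mu_pos lam h h1
    exact ⟨fun d hd => (cert3 lam h h1).threshold_regular (by norm_num) hadm hmu hd,
      fun d hd => ⟨fun n => integrable_quenched (by norm_num) hadm _ n,
        (cert3 lam h h1).threshold_poisson (by norm_num) hadm hmu hd⟩⟩
  · exact ⟨fun d _ => threshold_regular_neg h0 h d,
      fun d _ => ⟨fun n => integrable_quenched (by norm_num) hadm _ n,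
        threshold_poisson_neg h0 h d⟩⟩

end Vale.Agent.Results.P154.AllParameters
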