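import Mathlib
import Vale.Agent.P154.Defs
import Vale.Agent.P154.Inst
import Vale.Agent.P154.KS
import Vale.Agent.P154.Q4Facts
import Vale.Agent.P154.Near.RegNeg
import Vale.Agent.P154.R5Neg

/-!
# P154: reconstruction thresholds of the three- and four-state Potts channels

(i) For `q ∈ {3, 4}` and every `λ ∈ [0, 1]`: on the rooted `d`-ary tree, for every `d ≥ 2`, and on
the Galton–Watson tree with Poisson(`d`) offspring, for every real `d > 0`, reconstruction occurs
if and only if `d λ² > 1`.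
(ii) For `q = 3`, every `λ ∈ [-1/2, 1]` and every `d ≥ 2` the same holds on the `d`-ary tree.
(iii) For `q = 3`, every `λ ∈ [-49/100, 1]` and every real `d > 0` the same holds on the Poisson
tree.
-/

namespace Vale.Agent.Results.P154.AllRegularTrees

open Vale.Agent.P154 MeasureTheory

theorem iff_of {a : ℕ → ℝ} {p : Prop} (h1 : ¬ p → Nonreconstruction a)
    (h2 : p → Reconstruction a) : (Reconstruction a ↔ p) ∧ (Nonreconstruction a ↔ ¬ p) := by
  refine ⟨⟨fun hr => ?_, h2⟩, ⟨fun hn hp => not_both (h2 hp) hn, h1⟩⟩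
  by_contra h3
  exact not_both hr (h1 h3)

theorem result :
    (∀ q : ℕ, q = 3 ∨ q = 4 → ∀ lam : ℝ, 0 ≤ lam → lam ≤ 1 →
      (∀ d : ℕ, 2 ≤ d →
        (Reconstruction (aRegular q lam d) ↔ 1 < (d : ℝ) * lam ^ 2) ∧
        (Nonreconstruction (aRegular q lam d) ↔ (d : ℝ) * lam ^ 2 ≤ 1)) ∧
      (∀ d : NNReal, 0 < d →
        (∀ n, Integrable (fun N => quenched q lam N n) (poissonTree d)) ∧
        (Reconstruction (aPoisson q lam d) ↔ 1 < (d : ℝ) * lam ^ 2) ∧
        (Nonreconstruction (aPoisson q lam d) ↔ (d : ℝ) * lam ^ 2 ≤ 1))) ∧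
    (∀ lam : ℝ, -1 / 2 ≤ lam → lam ≤ 1 → ∀ d : ℕ, 2 ≤ d →
      (Reconstruction (aRegular 3 lam d) ↔ 1 < (d : ℝ) * lam ^ 2) ∧
      (Nonreconstruction (aRegular 3 lam d) ↔ (d : ℝ) * lam ^ 2 ≤ 1)) ∧
    (∀ lam : ℝ, -49 / 100 ≤ lam → lam ≤ 1 → ∀ d : NNReal, 0 < d →
      (∀ n, Integrable (fun N => quenched 3 lam N n) (poissonTree d)) ∧
      (Reconstruction (aPoisson 3 lam d) ↔ 1 < (d : ℝ) * lam ^ 2) ∧
      (Nonreconstruction (aPoisson 3 lam d) ↔ (d : ℝ) * lam ^ 2 ≤ 1)) := by
  have key : ∀ q : ℕ, q = 3 ∨ q = 4 → ∀ lam : ℝ, 0 ≤ lam → lam ≤ 1 →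
      (∀ d : ℕ, 2 ≤ d →
        (Reconstruction (aRegular q lam d) ↔ 1 < (d : ℝ) * lam ^ 2) ∧
        (Nonreconstruction (aRegular q lam d) ↔ (d : ℝ) * lam ^ 2 ≤ 1)) ∧
      (∀ d : NNReal, 0 < d →
        (∀ n, Integrable (fun N => quenched q lam N n) (poissonTree d)) ∧
        (Reconstruction (aPoisson q lam d) ↔ 1 < (d : ℝ) * lam ^ 2) ∧
        (Nonreconstruction (aPoisson q lam d) ↔ (d : ℝ) * lam ^ 2 ≤ 1)) := by
    intro q hq lam h0 h1
    rcases hq with rfl | rfl
    · have hadm : Admissible 3 lam := admissible_of_mem 3 h0 h1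
      have hmu : 0 < (cert3 lam h0 h1).mu := cert3_mu_pos lam h0 h1
      refine ⟨fun d hd => (cert3 lam h0 h1).threshold_regular (by norm_num) hadm hmu hd,
        fun d hd => ⟨fun n => integrable_quenched (by norm_num) hadm _ n, ?_⟩⟩
      exact (cert3 lam h0 h1).threshold_poisson (by norm_num) hadm hmu hd
    · exact Q4.threshold Q4.facts lam h0 h1
  refine ⟨key, fun lam h0 h1 d hd => ?_, fun lam h0 h1 d hd => ?_⟩
  · rcases le_total 0 lam with h | h
    · exact (key 3 (Or.inl rfl) lam h h1).1 d hd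
    · have := iff_of (a := aRegular 3 lam d) (p := 1 < (d : ℝ) * lam ^ 2)
        (fun h' => regular_neg h0 h (not_lt.1 h'))
        (fun h' => ks_regular (by norm_num) (admissible_three (by linarith) (by linarith)) h')
      rwa [not_lt] at this
  · rcases le_total 0 lam with h | h
    · exact (key 3 (Or.inl rfl) lam h h1).2 d hd
    · have := iff_of (a := aPoisson 3 lam d) (p := 1 < (d : ℝ) * lam ^ 2)
        (fun h' => poisson_P12 h0 h (not_lt.1 h'))
        (fun h' => ks_poisson (by norm_num) (admissible_three (by linarith) (by linarith)) h')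
      rw [not_lt] at this
      exact ⟨fun n => integrable_quenched (by norm_num)
        (admissible_three (by linarith) (by linarith)) _ n, this⟩

end Vale.Agent.Results.P154.AllRegularTrees
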