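import Mathlib
import Vale.Agent.P154.Defs
import Vale.Agent.P154.Inst
import Vale.Agent.P154.KS
import Vale.Agent.P154.Q4Facts

/-!
# P154: the reconstruction threshold of the ferromagnetic three- and four-state Potts channels

For `q ∈ {3, 4}` and every `λ ∈ [0,1]`: on the rooted `d`-ary tree, for every `d ≥ 2`, and on the
Galton–Watson tree with Poisson(`d`) offspring, for every real `d > 0`, reconstruction occurs
if and only if `d λ² > 1`.
-/

namespace Vale.Agent.Results.P154.FerroThreeFour

open Vale.Agent.P154 MeasureTheory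

theorem result (q : ℕ) (hq : q = 3 ∨ q = 4) (lam : ℝ) (h0 : 0 ≤ lam) (h1 : lam ≤ 1) :
    (∀ d : ℕ, 2 ≤ d →
      (Reconstruction (aRegular q lam d) ↔ 1 < (d : ℝ) * lam ^ 2) ∧
      (Nonreconstruction (aRegular q lam d) ↔ (d : ℝ) * lam ^ 2 ≤ 1)) ∧
    (∀ d : NNReal, 0 < d →
      (∀ n, Integrable (fun N => quenched q lam N n) (poissonTree d)) ∧
      (Reconstruction (aPoisson q lam d) ↔ 1 < (d : ℝ) * lam ^ 2) ∧
      (Nonreconstruction (aPoisson q lam d) ↔ (d : ℝ) * lam ^ 2 ≤ 1)) := by
  rcases hq with rfl | rfl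
  · have hadm : Admissible 3 lam := admissible_of_mem 3 h0 h1
    have hmu : 0 < (cert3 lam h0 h1).mu := cert3_mu_pos lam h0 h1
    refine ⟨fun d hd => (cert3 lam h0 h1).threshold_regular (by norm_num) hadm hmu hd,
      fun d hd => ⟨fun n => integrable_quenched (by norm_num) hadm _ n, ?_⟩⟩
    exact (cert3 lam h0 h1).threshold_poisson (by norm_num) hadm hmu hd
  · exact Q4.threshold Q4.facts lam h0 h1

end Vale.Agent.Results.P154.FerroThreeFour
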